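import Mathlib
import Vale.Agent.Lib.P143.Defs
import Vale.Agent.Lib.P143.Defs3
import Vale.Agent.Lib.P143.Defs4
import Vale.Agent.Lib.P143.Defs5
import Vale.Agent.Lib.P143.BorelMain
import Vale.Agent.Lib.P143.FreeProdMain

/-!
# The free uniform spanning forest as a factor of IID: a Borel graph factor on graphs with
finite blocks, and closure under free products of Cayley graphs (one statement collecting two
results)
-/

namespace Vale.Agent.Results.P143.BlockOmnibus

open Vale.Agent.Lib.P143 MeasureTheory

/-- Two results on the free uniform spanning forest (FUSF) as a factor of IID labels.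

(B) There is one rule `Φ`, defined for all graphs (on all vertex types) at once, such that:
`Φ` commutes with every graph isomorphism; `Φ V G u` is a set of edges of `G`; for countable `V`
and every edge `e`, the set of pairs `(G, u)` with `e ∈ Φ V G u` is measurable for the product
of the sigma-algebra on graphs generated by the edge events and the product sigma-algebra on
labellings; whether `e ∈ Φ V G u` depends only on the labels at the vertices of the block of
`e` and their neighbours; and for every locally finite graph `G` all of whose blocks are
finite, `Φ V G` is measurable and for i.i.d. uniform labels the law of `Φ V G u` is the FUSF of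
`G` (limit of the uniform spanning trees along every exhaustion by finite connected subgraphs).
Exhaustions exist for connected locally finite graphs.

(C) Let `G i`, `i` in a finite index set, be groups with finite generating sets `S i`, and let
`Γ` be their free product, generated by the union `freeProdGens G S` of the `S i`.  All the
Cayley graphs involved are connected, locally finite and have exhaustions.  If for every `i`
the FUSF of the Cayley graph of `G i` is a `G i`-factor of IID (`FusfIsFactor`), then the FUSF
of the Cayley graph of `Γ` is a `Γ`-factor of IID.  The hypothesis holds for every factor whose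
Cayley graph has only finite blocks; in particular the conclusion holds if all the `G i` are
finite. -/
theorem result :
    ((∀ (V : Type) (G : SimpleGraph V), G.Connected → (∀ v, (G.neighborSet v).Finite) →
        ∃ H : ℕ → G.Subgraph, IsExhaustion G H) ∧
      ∃ Φ : ∀ (V : Type) (G : SimpleGraph V), (V → unitInterval) → Set (Sym2 V),
        (∀ (V V' : Type) (G : SimpleGraph V) (G' : SimpleGraph V') (φ : G ≃g G')
          (u : V → unitInterval), Φ V' G' (fun v => u (φ.symm v)) = Sym2.map φ '' Φ V G u) ∧
        (∀ (V : Type) (G : SimpleGraph V) (u : V → unitInterval), Φ V G u ⊆ G.edgeSet) ∧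
        (∀ (V : Type) [Countable V] (e : Sym2 V),
          MeasurableSet[(graphMS V).prod MeasurableSpace.pi]
            {p : SimpleGraph V × (V → unitInterval) | e ∈ Φ V p.1 p.2}) ∧
        (∀ (V : Type) (G : SimpleGraph V) (e : Sym2 V) (u u' : V → unitInterval),
          (∀ v, (∃ f ∈ blockOf G e, ∃ w ∈ f, v = w ∨ G.Adj w v) → u v = u' v) →
            (e ∈ Φ V G u ↔ e ∈ Φ V G u')) ∧
        ∀ (V : Type) (G : SimpleGraph V), (∀ v, (G.neighborSet v).Finite) →
          (∀ e ∈ G.edgeSet, (blockOf G e).Finite) →
            (∀ e, MeasurableSet {u | e ∈ Φ V G u}) ∧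
            ∀ H : ℕ → G.Subgraph, IsExhaustion G H → ∀ K : Set (Sym2 V), K.Finite →
              ∀ S : Set (Sym2 V),
                Filter.Tendsto (fun n => ustProb G (H n) K S) Filter.atTop
                  (nhds ((Measure.infinitePi (fun _ : V => (volume : Measure unitInterval)))
                    {u | Φ V G u ∩ K = S}).toReal)) ∧
    (∀ (ι : Type) [Finite ι] (G : ι → Type) [∀ i, Group (G i)]
      (S : ∀ i, Set (G i)), (∀ i, (S i).Finite) → (∀ i, Subgroup.closure (S i) = ⊤) →
      ((∀ i, (cayleyGraph (S i)).Connected ∧
          (∀ v, ((cayleyGraph (S i)).neighborSet v).Finite) ∧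
          ∃ H : ℕ → (cayleyGraph (S i)).Subgraph, IsExhaustion (cayleyGraph (S i)) H) ∧
        (cayleyGraph (freeProdGens G S)).Connected ∧
        (∀ v, ((cayleyGraph (freeProdGens G S)).neighborSet v).Finite) ∧
        ∃ H : ℕ → (cayleyGraph (freeProdGens G S)).Subgraph,
          IsExhaustion (cayleyGraph (freeProdGens G S)) H) ∧
      ((∀ i, FusfIsFactor (G i) (S i)) →
        FusfIsFactor (Monoid.CoprodI G) (freeProdGens G S)) ∧
      (∀ i, (∀ e ∈ (cayleyGraph (S i)).edgeSet, (blockOf (cayleyGraph (S i)) e).Finite) →
        FusfIsFactor (G i) (S i)) ∧
      ((∀ i, Finite (G i)) → FusfIsFactor (Monoid.CoprodI G) (freeProdGens G S))) := by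
  refine ⟨fusf_borel_graph_factor, ?_⟩
  intro ι _ G _ S hfin hgen
  refine ⟨⟨fun i => ?_, cayley_freeProduct_graph G S hfin hgen⟩,
    fusf_freeProduct G S hfin hgen,
    fun i hb => fusfIsFactor_of_blocks_finite (S i) (hfin i) hb,
    fun hF => fusf_freeProduct G S hfin hgen (fun i => ?_)⟩
  · have hlf := cayley_locallyFinite (S i) (hfin i)
    have hc := cayley_connected (S i) (hgen i)
    exact ⟨hc, hlf, exists_exhaustion _ hc hlf⟩
  · have := hF i
    exact fusfIsFactor_of_finite (S i)

end Vale.Agent.Results.P143.BlockOmnibus
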