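import Mathlib
import Vale.Agent.Lib.P143.Defs
import Vale.Agent.Lib.P143.Defs2
import Vale.Agent.Lib.P143.Main3

/-!
# Reduction to the infinite blocks: the free uniform spanning forest of a graph is a factor
of IID as soon as the free uniform spanning forests of its infinite blocks are
-/

namespace Vale.Agent.Results.P143.BlockReduction

open Vale.Agent.Lib.P143 MeasureTheory

/-- Let `G` be a locally finite graph and `A` a set of automorphisms of `G`.  Suppose that for
every infinite block `B` of `G` we are given a factor `Ψ B` of IID labels realising the free
uniform spanning forest of `B` (`IsBlockFactor`: its values are sets of edges of `B`, it is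
measurable in each coordinate, it depends only on the labels at the vertices of `B`, and its
law is the limit of the uniform spanning trees along every exhaustion of `B` by finite
connected subgraphs), and that the family `Ψ` is compatible with the automorphisms in `A`.
Then there is an `A`-equivariant measurable map `Φ` from labellings to sets of edges of `G`
such that for i.i.d. uniform labels the law of `Φ u` is the free uniform spanning forest of
`G`: along every exhaustion `H n` of `G` by finite connected subgraphs, the probability that
the uniform spanning tree of `H n` meets a finite edge set `K` exactly in `S` converges to the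
probability that `Φ u` meets `K` exactly in `S`.  Nothing is assumed about the finite blocks.
(Exhaustions of `G` exist as soon as `G` is connected.) -/
theorem result {V : Type} (G : SimpleGraph V)
    (hlf : ∀ v, (G.neighborSet v).Finite)
    (A : Set (G ≃g G)) (Ψ : Set (Sym2 V) → (V → unitInterval) → Set (Sym2 V))
    (hΨ : ∀ e ∈ G.edgeSet, ¬ (blockOf G e).Finite →
      IsBlockFactor G (blockOf G e) (Ψ (blockOf G e)))
    (hequiv : ∀ γ ∈ A, ∀ e ∈ G.edgeSet, ¬ (blockOf G e).Finite → ∀ u : V → unitInterval,
      Ψ (Sym2.map γ '' blockOf G e) (fun v => u (γ.symm v)) =
        Sym2.map γ '' Ψ (blockOf G e) u) :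
    (G.Connected → ∃ H : ℕ → G.Subgraph, IsExhaustion G H) ∧
    ∃ Φ : (V → unitInterval) → Set (Sym2 V),
      (∀ u, Φ u ⊆ G.edgeSet) ∧
      (∀ e, MeasurableSet {u | e ∈ Φ u}) ∧
      (∀ γ ∈ A, ∀ u : V → unitInterval, Φ (fun v => u (γ.symm v)) = Sym2.map γ '' Φ u) ∧
      ∀ H : ℕ → G.Subgraph, IsExhaustion G H → ∀ K : Set (Sym2 V), K.Finite →
        ∀ S : Set (Sym2 V),
          Filter.Tendsto (fun n => ustProb G (H n) K S) Filter.atTop
            (nhds ((Measure.infinitePi (fun _ : V => (volume : Measure unitInterval)))
              {u | Φ u ∩ K = S}).toReal) :=
  fusf_block_reduction G hlf A Ψ hΨ hequiv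

end Vale.Agent.Results.P143.BlockReduction
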