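import Mathlib
import Vale.Agent.Lib.P143.Defs
import Vale.Agent.Lib.P143.Defs3
import Vale.Agent.Lib.P143.BorelMain

/-!
# The free uniform spanning forest as a Borel graph factor of IID on graphs with finite blocks
-/

namespace Vale.Agent.Results.P143.BorelGraphFactor

open Vale.Agent.Lib.P143 MeasureTheory

/-- There is one rule `Φ`, defined for all graphs (on all vertex types) at once, such that:
`Φ` commutes with every graph isomorphism; `Φ V G u` is a set of edges of `G`; for countable `V`
and every edge `e`, the set of pairs `(G, u)` with `e ∈ Φ V G u` is measurable for the product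
of the sigma-algebra on graphs generated by the edge events and the product sigma-algebra on
labellings (so `Φ` is a Borel function of the labelled graph with a distinguished edge);
whether `e ∈ Φ V G u` depends only on the labels at the vertices of the block of `e` and their
neighbours; and for every locally finite graph `G` all of whose blocks are finite, `Φ V G` is
measurable and for i.i.d. uniform labels the law of `Φ V G u` is the free uniform spanning
forest of `G` (limit of the uniform spanning trees along every exhaustion by finite connected
subgraphs).  Exhaustions exist for connected locally finite graphs. -/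
theorem result :
    (∀ (V : Type) (G : SimpleGraph V), G.Connected → (∀ v, (G.neighborSet v).Finite) →
      ∃ H : ℕ → G.Subgraph, IsExhaustion G H) ∧
    ∃ Φ : ∀ (V : Type) (G : SimpleGraph V), (V → unitInterval) → Set (Sym2 V),
      (∀ (V V' : Type) (G : SimpleGraph V) (G' : SimpleGraph V') (φ : G ≃g G')
        (u : V → unitInterval), Φ V' G' (fun v => u (φ.symm v)) = Sym2.map φ '' Φ V G u) ∧
      (∀ (V : Type) (G : SimpleGraph V) (u : V → unitInterval), Φ V G u ⊆ G.edgeSet) ∧
      (∀ (V : Type) [Countable V] (e : Sym2 V),
        MeasurableSet[(graphMS V).prod MeasurableSpace.pi]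
          {p : SimpleGraph V × (V → unitInterval) | e ∈ Φ V p.1 p.2}) ∧
      (∀ (V : Type) (G : SimpleGraph V) (e : Sym2 V) (u u' : V → unitInterval),
        (∀ v, (∃ f ∈ blockOf G e, ∃ w ∈ f, v = w ∨ G.Adj w v) → u v = u' v) →
          (e ∈ Φ V G u ↔ e ∈ Φ V G u')) ∧
      ∀ (V : Type) (G : SimpleGraph V), (∀ v, (G.neighborSet v).Finite) →
        (∀ e ∈ G.edgeSet, (blockOf G e).Finite) →
          (∀ e, MeasurableSet {u | e ∈ Φ V G u}) ∧
          ∀ H : ℕ → G.Subgraph, IsExhaustion G H → ∀ K : Set (Sym2 V), K.Finite →
            ∀ S : Set (Sym2 V),
              Filter.Tendsto (fun n => ustProb G (H n) K S) Filter.atTop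
                (nhds ((Measure.infinitePi (fun _ : V => (volume : Measure unitInterval)))
                  {u | Φ V G u ∩ K = S}).toReal) :=
  fusf_borel_graph_factor

end Vale.Agent.Results.P143.BorelGraphFactor
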