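import Mathlib
import Vale.Agent.Lib.P143.Defs
import Vale.Agent.Lib.P143.Defs4
import Vale.Agent.Lib.P143.Defs5
import Vale.Agent.Lib.P143.FreeProdMain

/-!
# The class of Cayley graphs whose free uniform spanning forest is a factor of IID is closed
under free products
-/

namespace Vale.Agent.Results.P143.FreeProductClosure

open Vale.Agent.Lib.P143 MeasureTheory

/-- Let `G i`, `i` in a finite index set, be groups with finite generating sets `S i`, and let
`Γ` be their free product, generated by the union `freeProdGens G S` of the `S i`.

1. Every Cayley graph `cayleyGraph (S i)`, and the Cayley graph of `Γ`, is connected and locally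
   finite and has an exhaustion by finite connected subgraphs (so the free uniform spanning
   forests below are limits along exhaustions that exist).
2. Closure under free products: if for every `i` the free uniform spanning forest of the Cayley
   graph of `G i` is a `G i`-factor of IID (`FusfIsFactor`), then the free uniform spanning
   forest of the Cayley graph of `Γ` is a `Γ`-factor of IID.
3. The hypothesis of 2 holds for every factor whose Cayley graph has only finite blocks.
4. In particular, if all the groups `G i` are finite, the free uniform spanning forest of the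
   Cayley graph of their free product is a `Γ`-factor of IID. -/
theorem result {ι : Type} [Finite ι] (G : ι → Type) [∀ i, Group (G i)]
    (S : ∀ i, Set (G i)) (hfin : ∀ i, (S i).Finite)
    (hgen : ∀ i, Subgroup.closure (S i) = ⊤) :
    ((∀ i, (cayleyGraph (S i)).Connected ∧ (∀ v, ((cayleyGraph (S i)).neighborSet v).Finite) ∧
        ∃ H : ℕ → (cayleyGraph (S i)).Subgraph, IsExhaustion (cayleyGraph (S i)) H) ∧
      (cayleyGraph (freeProdGens G S)).Connected ∧
      (∀ v, ((cayleyGraph (freeProdGens G S)).neighborSet v).Finite) ∧
      ∃ H : ℕ → (cayleyGraph (freeProdGens G S)).Subgraph,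
        IsExhaustion (cayleyGraph (freeProdGens G S)) H) ∧
    ((∀ i, FusfIsFactor (G i) (S i)) →
      FusfIsFactor (Monoid.CoprodI G) (freeProdGens G S)) ∧
    (∀ i, (∀ e ∈ (cayleyGraph (S i)).edgeSet, (blockOf (cayleyGraph (S i)) e).Finite) →
      FusfIsFactor (G i) (S i)) ∧
    ((∀ i, Finite (G i)) → FusfIsFactor (Monoid.CoprodI G) (freeProdGens G S)) := by
  refine ⟨⟨fun i => ?_, cayley_freeProduct_graph G S hfin hgen⟩,
    fusf_freeProduct G S hfin hgen,
    fun i hb => fusfIsFactor_of_blocks_finite (S i) (hfin i) hb,
    fun hF => fusf_freeProduct G S hfin hgen (fun i => ?_)⟩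
  · have hlf := cayley_locallyFinite (S i) (hfin i)
    have hc := cayley_connected (S i) (hgen i)
    exact ⟨hc, hlf, exists_exhaustion _ hc hlf⟩
  · have := hF i
    exact fusfIsFactor_of_finite (S i)

end Vale.Agent.Results.P143.FreeProductClosure
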